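import Vale.Agent.P154.Hel.CP.R4.Data

/-!
Walk of the forms of the planes on a part of the unit square.
-/

namespace Vale.Agent.P154.Hel.Direct.R4

open TM

set_option maxRecDepth 100000 in
/-- A cell. -/
theorem g_2_3_1 : GoodC (tabsR X9) zF [] 2 3 1 :=
  goodC_of_walk (c := cfgD) cfgD_valid hX9 hLL hSF hS0 (f := 7) (by decide +kernel)

set_option maxRecDepth 100000 in
/-- A cell. -/
theorem g_3_6_4 : GoodC (tabsR X9) zF [] 3 6 4 :=
  goodC_of_walk (c := cfgD) cfgD_valid hX9 hLL hSF hS0 (f := 4) (by decide +kernel)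

set_option maxRecDepth 100000 in
/-- A cell. -/
theorem g_3_7_4 : GoodC (tabsR X9) zF [] 3 7 4 :=
  goodC_of_walk (c := cfgD) cfgD_valid hX9 hLL hSF hS0 (f := 9) (by decide +kernel)

set_option maxRecDepth 100000 in
/-- A cell. -/
theorem g_3_6_5 : GoodC (tabsR X9) zF [] 3 6 5 :=
  goodC_of_walk (c := cfgD) cfgD_valid hX9 hLL hSF hS0 (f := 5) (by decide +kernel)

set_option maxRecDepth 100000 in
/-- A cell. -/
theorem g_4_14_10 : GoodC (tabsR X9) zF [] 4 14 10 :=
  goodC_of_walk (c := cfgD) cfgD_valid hX9 hLL hSF hS0 (f := 4) (by decide +kernel)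

end Vale.Agent.P154.Hel.Direct.R4
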